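import Mathlib
import Crest.Prelude.Def_ModularData
/-! Basic facts on `LineCalculus`. -/
set_option autoImplicit false
namespace Crest.Agent.BR
open Crest.OpAlg Filter Topology MeasureTheory BoundedContinuousFunction
open scoped InnerProductSpace

variable {H : Type*} [NormedAddCommGroup H] [InnerProductSpace ℂ H] [CompleteSpace H]
  (D : LineCalculus H)

theorem apply_mul (f g : ℝ →ᵇ ℂ) (x : H) : D.apply (f * g) x = D.apply f (D.apply g x) := by
  rw [map_mul]; rfl

theorem inner_apply (f : ℝ →ᵇ ℂ) (x y : H) : ⟪D.apply f x, y⟫_ℂ = ⟪x, D.apply (star f) y⟫_ℂ := by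
  rw [map_star, ContinuousLinearMap.star_eq_adjoint, ContinuousLinearMap.adjoint_inner_right]

theorem normsq (f : ℝ →ᵇ ℂ) (x : H) : ‖D.apply f x‖ ^ 2 = (⟪x, D.apply (star f * f) x⟫_ℂ).re := by
  rw [apply_mul, ← inner_apply, ← inner_self_eq_norm_sq (𝕜 := ℂ)]; rfl

theorem mono {f g : ℝ →ᵇ ℂ} (h : ∀ u, ‖f u‖ ≤ ‖g u‖) (x : H) : ‖D.apply f x‖ ≤ ‖D.apply g x‖ := by
  let r : ℝ →ᵇ ℂ := ofNormedAddCommGroup (fun u => (√(‖g u‖ ^ 2 - ‖f u‖ ^ 2) : ℝ)) (by fun_prop) ‖g‖
    fun u => by
      rw [Complex.norm_real, Real.norm_of_nonneg (Real.sqrt_nonneg _)]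
      refine Real.sqrt_le_iff.mpr ⟨norm_nonneg _, ?_⟩
      have := pow_le_pow_left₀ (norm_nonneg _) (g.norm_coe_le_norm u) 2
      nlinarith [sq_nonneg ‖f u‖]
  have e : star g * g = star f * f + star r * r := by
    ext u
    have h1 : 0 ≤ ‖g u‖ ^ 2 - ‖f u‖ ^ 2 := sub_nonneg.mpr (pow_le_pow_left₀ (norm_nonneg _) (h u) 2)
    simp only [BoundedContinuousFunction.mul_apply, BoundedContinuousFunction.star_apply,
      BoundedContinuousFunction.add_apply, RCLike.star_def, Complex.conj_mul', r,
      coe_ofNormedAddCommGroup, Complex.norm_real, Real.norm_of_nonneg (Real.sqrt_nonneg _)]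
    rw [← Complex.ofReal_pow (√_), Real.sq_sqrt h1]; push_cast; ring
  refine (abs_le_of_sq_le_sq' ?_ (norm_nonneg _)).2
  rw [normsq D g, e, map_add, ContinuousLinearMap.add_apply, inner_add_right, Complex.add_re,
    ← normsq, ← normsq]
  nlinarith [sq_nonneg ‖D.apply r x‖]

theorem apply_le {f : ℝ →ᵇ ℂ} {C : ℝ} (h : ∀ u, ‖f u‖ ≤ C) (x : H) : ‖D.apply f x‖ ≤ C * ‖x‖ := by
  have hC : 0 ≤ C := (norm_nonneg _).trans (h 0)
  have := mono D (f := f) (g := (C : ℂ) • 1) (fun u => by simpa [abs_of_nonneg hC] using h u) x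
  rw [map_smul, map_one] at this
  simpa [norm_smul, abs_of_nonneg hC] using this

/-- cut-off function -/
noncomputable def chi (R : ℝ) (u : ℝ) : ℝ := max 0 (min 1 (R + 1 - |u|))

theorem chi_cont (R : ℝ) : Continuous (chi R) := by unfold chi; fun_prop

theorem chi_abs (R u : ℝ) : |chi R u| ≤ 1 := by
  unfold chi; rw [abs_of_nonneg (le_max_left _ _)]; exact max_le zero_le_one (min_le_left _ _)

theorem chi_one {R u : ℝ} (h : |u| ≤ R) : chi R u = 1 := by
  unfold chi; rw [min_eq_left (by linarith), max_eq_right zero_le_one]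

theorem chi_zero {R u : ℝ} (h : R + 1 ≤ |u|) : chi R u = 0 := by
  unfold chi; exact max_eq_left ((min_le_right _ _).trans (by linarith))

theorem chi_nonneg (R u : ℝ) : 0 ≤ chi R u := le_max_left _ _

theorem cut_bdd (R : ℝ) {g : ℝ → ℂ} (hg : Continuous g) : ∃ C, ∀ u, ‖(chi R u : ℂ) * g u‖ ≤ C := by
  refine Continuous.bounded_above_of_compact_support
    ((Complex.continuous_ofReal.comp (chi_cont R)).mul hg) ?_
  refine HasCompactSupport.intro (isCompact_Icc (a := -(R + 1)) (b := R + 1)) fun u hu => ?_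
  have : R + 1 ≤ |u| := by
    by_contra h
    exact hu (abs_le.mp (not_le.mp h).le)
  simp [chi_zero this]

/-- cut-off of a continuous function -/
noncomputable def cut (R : ℝ) (g : ℝ → ℂ) (hg : Continuous g) : ℝ →ᵇ ℂ :=
  ofNormedAddCommGroup (fun u => (chi R u : ℂ) * g u)
    ((Complex.continuous_ofReal.comp (chi_cont R)).mul hg) _ (cut_bdd R hg).choose_spec

theorem cut_apply (R : ℝ) (g : ℝ → ℂ) (hg : Continuous g) (u : ℝ) :
    cut R g hg u = (chi R u : ℂ) * g u := rfl

/-- the cut-off itself -/
noncomputable def cut1 (R : ℝ) : ℝ →ᵇ ℂ := cut R (fun _ => 1) continuous_const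

theorem cut1_apply (R u : ℝ) : cut1 R u = chi R u := by rw [cut1, cut_apply, mul_one]

theorem cut_le {R : ℝ} {g : ℝ → ℂ} (hg : Continuous g) {C : ℝ} (hC : 0 ≤ C)
    (h : ∀ u, |u| ≤ R + 1 → ‖g u‖ ≤ C) (u : ℝ) : ‖cut R g hg u‖ ≤ C := by
  rw [cut_apply, norm_mul, Complex.norm_real, Real.norm_eq_abs]
  rcases le_total (R + 1) |u| with hu | hu
  · simp [chi_zero hu, hC]
  · exact (mul_le_of_le_one_left (norm_nonneg _) (chi_abs R u)).trans (h u hu)

theorem approx (x : H) {ε : ℝ} (hε : 0 < ε) : ∃ R, 0 ≤ R ∧ ‖D.apply (cut1 R) x - x‖ ≤ ε := by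
  obtain ⟨f, hf, hx⟩ := D.window x ε hε
  obtain ⟨R, hR⟩ := hf.isCompact.isBounded.subset_closedBall 0
  refine ⟨|R|, abs_nonneg _, ?_⟩
  have e : (cut1 |R| - 1) * f = 0 := by
    ext u
    by_cases hu : u ∈ tsupport f
    · have := hR hu
      rw [mem_closedBall_zero_iff, Real.norm_eq_abs] at this
      simp [cut1_apply, chi_one (this.trans (le_abs_self R))]
    · simp [image_eq_zero_of_notMem_tsupport hu]
  have e2 : D.apply (cut1 |R|) x - x = D.apply (cut1 |R| - 1) (x - D.apply f x) := by
    rw [map_sub (D.apply _), ← apply_mul, e]; simp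
  rw [e2]
  refine (apply_le D (C := 1) (fun u => ?_) _).trans (by rw [norm_sub_rev]; linarith)
  have h1 := chi_abs |R| u
  have h2 := chi_nonneg |R| u
  rw [abs_of_nonneg h2] at h1
  simp only [BoundedContinuousFunction.sub_apply, cut1_apply, BoundedContinuousFunction.coe_one,
    Pi.one_apply]
  rw [← Complex.ofReal_one, ← Complex.ofReal_sub, Complex.norm_real, Real.norm_eq_abs, abs_le]
  constructor <;> linarith

theorem char_apply (t u : ℝ) :
    LineCalculus.character t u = Complex.exp (Complex.I * ((t * u : ℝ) : ℂ)) := rfl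

theorem norm_char (t u : ℝ) : ‖LineCalculus.character t u‖ = 1 := by
  rw [char_apply, Complex.norm_exp]; simp

theorem char_add (t r : ℝ) :
    LineCalculus.character (t + r) = LineCalculus.character t * LineCalculus.character r := by
  ext u
  simp only [char_apply, BoundedContinuousFunction.mul_apply, ← Complex.exp_add]
  congr 1; push_cast; ring

theorem char_sub_one (t u : ℝ) : ‖LineCalculus.character t u - 1‖ ≤ |t| * |u| := by
  rw [char_apply, ← abs_mul]
  exact Real.norm_exp_I_mul_ofReal_sub_one_le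

theorem wave_add (t r : ℝ) : D.wave (t + r) = D.wave t * D.wave r := by
  simp only [LineCalculus.wave, char_add, map_mul]

theorem wave_zero : D.wave 0 = 1 := by
  have : LineCalculus.character 0 = 1 := by ext u; simp [char_apply]
  rw [LineCalculus.wave, this, map_one]

theorem star_wave (t : ℝ) : star (D.wave t) = D.wave (-t) := by
  rw [LineCalculus.wave, LineCalculus.wave, ← map_star]
  congr 1
  ext u
  simp [char_apply, ← Complex.exp_conj]

theorem wave_wave (t r : ℝ) (x : H) : D.wave t (D.wave r x) = D.wave (t + r) x := by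
  rw [wave_add]; rfl

theorem inner_wave (t : ℝ) (x y : H) : ⟪D.wave t x, y⟫_ℂ = ⟪x, D.wave (-t) y⟫_ℂ := by
  rw [← star_wave, ContinuousLinearMap.star_eq_adjoint, ContinuousLinearMap.adjoint_inner_right]

theorem norm_wave (t : ℝ) (x : H) : ‖D.wave t x‖ = ‖x‖ := by
  rw [← sq_eq_sq₀ (norm_nonneg _) (norm_nonneg _), ← inner_self_eq_norm_sq (𝕜 := ℂ),
    ← inner_self_eq_norm_sq (𝕜 := ℂ), inner_wave, wave_wave, neg_add_cancel, wave_zero]; rfl

theorem apply_wave (f : ℝ →ᵇ ℂ) (t : ℝ) (x : H) : D.apply f (D.wave t x) = D.wave t (D.apply f x) := by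
  rw [LineCalculus.wave, ← apply_mul, mul_comm, apply_mul]

theorem char_cut_lip {R : ℝ} (hR : 0 ≤ R) (t r u : ℝ) :
    ‖(LineCalculus.character t * cut1 R - LineCalculus.character r * cut1 R) u‖ ≤
      (R + 1) * |t - r| := by
  have e : LineCalculus.character t = LineCalculus.character (t - r) * LineCalculus.character r := by
    rw [← char_add, sub_add_cancel]
  have e2 : (LineCalculus.character t * cut1 R - LineCalculus.character r * cut1 R) u =
      cut R (fun u => (LineCalculus.character (t - r) u - 1) * LineCalculus.character r u)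
        (by fun_prop) u := by
    rw [e]
    simp only [BoundedContinuousFunction.sub_apply, BoundedContinuousFunction.mul_apply, cut1_apply,
      cut_apply]
    ring
  rw [e2]
  refine cut_le _ (by positivity) (fun u hu => ?_) u
  rw [norm_mul, norm_char, mul_one, mul_comm]
  exact (char_sub_one _ _).trans (mul_le_mul_of_nonneg_left hu (abs_nonneg _))

theorem char_cut_cont {R : ℝ} (hR : 0 ≤ R) :
    Continuous fun t => LineCalculus.character t * cut1 R := by
  refine (LipschitzWith.of_dist_le_mul (K := ⟨R + 1, by positivity⟩) fun t r => ?_).continuous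
  rw [dist_eq_norm, Real.dist_eq]
  exact (BoundedContinuousFunction.norm_le (by positivity)).mpr (char_cut_lip hR t r)

/-- evaluation of the calculus at a vector -/
noncomputable def evL (x : H) : (ℝ →ᵇ ℂ) →L[ℂ] H :=
  LinearMap.mkContinuous
    { toFun := fun f => D.apply f x
      map_add' := fun f g => by simp
      map_smul' := fun c f => by simp } ‖x‖
    fun f => by rw [mul_comm]; exact apply_le D f.norm_coe_le_norm x

theorem evL_apply (x : H) (f : ℝ →ᵇ ℂ) : evL D x f = D.apply f x := rfl

theorem wave_cont (x : H) : Continuous fun t => D.wave t x := by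
  refine continuous_of_uniform_approx_of_continuous fun u hu => ?_
  obtain ⟨ε, hε, h⟩ := Metric.mem_uniformity_dist.mp hu
  obtain ⟨R, hR, hx⟩ := approx D x (half_pos hε)
  refine ⟨fun t => D.wave t (D.apply (cut1 R) x), ?_, fun t => h ?_⟩
  · exact ((evL D x).continuous.comp (char_cut_cont hR)).congr fun t => apply_mul D _ _ x
  · rw [dist_eq_norm, ← map_sub, norm_wave, norm_sub_rev]; linarith

theorem integrable_wave {k : ℝ → ℂ} (hk : Integrable k) {F : ℝ → H} (hF : Continuous F) {C : ℝ}
    (hC : ∀ t, ‖F t‖ ≤ C) : Integrable fun t => k t • F t :=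
  (hk.norm.mul_const C).mono' (hk.aestronglyMeasurable.smul hF.aestronglyMeasurable)
    (Eventually.of_forall fun t => by
      rw [norm_smul]; exact mul_le_mul_of_nonneg_left (hC t) (norm_nonneg _))

theorem integral_wave {k : ℝ → ℂ} (hk : Integrable k) (c : ℝ) (f : ℝ →ᵇ ℂ)
    (hf : ∀ u, f u = ∫ t, k t * LineCalculus.character (c * t) u) (x : H) :
    ∫ t, k t • D.wave (c * t) x = D.apply f x := by
  have hi : ∀ x, Integrable fun t => k t • D.wave (c * t) x := fun x =>
    integrable_wave hk ((wave_cont D x).comp (by fun_prop)) fun t => (norm_wave D _ x).le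
  have h1 : ∀ R, 0 ≤ R → ∫ t, k t • D.wave (c * t) (D.apply (cut1 R) x) =
      D.apply f (D.apply (cut1 R) x) := by
    intro R hR
    have hint : Integrable fun t => k t • (LineCalculus.character (c * t) * cut1 R) :=
      (hk.norm.mul_const 1).mono' (hk.aestronglyMeasurable.smul
        ((char_cut_cont hR).comp (by fun_prop)).aestronglyMeasurable)
        (Eventually.of_forall fun t => by
          rw [norm_smul]
          refine mul_le_mul_of_nonneg_left ((BoundedContinuousFunction.norm_le zero_le_one).mpr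
            fun u => ?_) (norm_nonneg _)
          rw [BoundedContinuousFunction.mul_apply, norm_mul, norm_char, one_mul, cut1_apply,
            Complex.norm_real]
          exact chi_abs R u)
    have e : ∫ t, k t • (LineCalculus.character (c * t) * cut1 R) = f * cut1 R := by
      ext u
      have := (evalCLM ℂ u).integral_comp_comm hint
      simp only [evalCLM_apply] at this
      rw [← this, BoundedContinuousFunction.mul_apply, hf, ← integral_mul_const]
      simp [mul_assoc]
    rw [← apply_mul D f, ← e, ← evL_apply D x (∫ _, _), ← (evL D x).integral_comp_comm hint]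
    simp only [map_smul, evL_apply, apply_mul]; rfl
  refine eq_of_forall_dist_le fun ε hε => ?_
  have hK : 0 ≤ ∫ t, ‖k t‖ := integral_nonneg fun _ => norm_nonneg _
  obtain ⟨R, hR, hx⟩ := approx D x (ε := ε / ((∫ t, ‖k t‖) + ‖f‖ + 1)) (by positivity)
  set y := D.apply (cut1 R) x
  have e : (∫ t, k t • D.wave (c * t) x) - D.apply f x =
      D.apply f (y - x) - ∫ t, k t • D.wave (c * t) (y - x) := by
    simp only [map_sub, smul_sub]
    rw [integral_sub (hi _) (hi _), h1 R hR]; abel
  rw [dist_eq_norm, e]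
  have h2 := apply_le D f.norm_coe_le_norm (y - x)
  have h3 : ‖∫ t, k t • D.wave (c * t) (y - x)‖ ≤ (∫ t, ‖k t‖) * ‖y - x‖ := by
    refine (norm_integral_le_integral_norm _).trans (le_of_eq ?_)
    simp only [norm_smul, norm_wave, integral_mul_const]
  rw [le_div_iff₀ (by positivity)] at hx
  have h4 := norm_sub_le (D.apply f (y - x)) (∫ t, k t • D.wave (c * t) (y - x))
  nlinarith [norm_nonneg (y - x)]

theorem halfExp_band {K : Set ℝ} {R : ℝ} (hK : ∀ u ∈ K, |u| ≤ R) {x : H} (hx : D.SupportedIn K x) :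
    D.HalfExp x (D.apply (cut R (fun u => (Real.exp (u / 2) : ℝ)) (by fun_prop)) x) := by
  intro f g hfg
  rw [← apply_mul, ← sub_eq_zero, ← ContinuousLinearMap.sub_apply, ← map_sub]
  refine hx _ fun u hu => ?_
  simp [hfg, cut_apply, chi_one (hK u hu)]

theorem wave_vac (S : ModularDatum H) (t : ℝ) : S.D.wave t S.vac = S.vac := by
  have hJ : ∀ a b, ⟪S.J a, b⟫_ℂ = ⟪S.J b, a⟫_ℂ := fun a b => by
    conv_lhs => rw [← S.J_J b]
    have hre : ∀ a b, (⟪S.J a, S.J b⟫_ℂ).re = (⟪a, b⟫_ℂ).re := fun a b => by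
      have h1 := re_inner_eq_norm_add_mul_self_sub_norm_mul_self_sub_norm_mul_self_div_two
        (𝕜 := ℂ) (S.J a) (S.J b)
      have h2 := re_inner_eq_norm_add_mul_self_sub_norm_mul_self_sub_norm_mul_self_div_two
        (𝕜 := ℂ) a b
      rw [← map_add, S.J.norm_map, S.J.norm_map, S.J.norm_map] at h1
      exact h1.trans h2.symm
    rw [← inner_conj_symm (S.J b) a]
    refine Complex.ext (by rw [hre, Complex.conj_re]) ?_
    have := hre a (Complex.I • S.J b)
    rw [map_smulₛₗ, inner_smul_right, inner_smul_right] at this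
    rw [Complex.conj_im]
    simpa using this
  have h1 : S.D.HalfExp S.vac (S.J S.vac) := by
    have : (S.vac, S.vac) ∈ {p : H × H | S.D.HalfExp p.1 (S.J p.2)} := by
      rw [← S.tomita]; exact subset_closure ⟨1, by simp⟩
    exact this
  have h2 : ∀ p : H × H, S.D.HalfExp p.1 (S.J p.2) → ⟪p.2, S.vac⟫_ℂ = ⟪S.vac, p.1⟫_ℂ := by
    intro p hp
    have : p ∈ closure _ := S.tomita.symm.subset hp
    refine closure_minimal (t := {p : H × H | ⟪p.2, S.vac⟫_ℂ = ⟪S.vac, p.1⟫_ℂ}) ?_
      (isClosed_eq (by fun_prop) (by fun_prop)) this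
    rintro _ ⟨a, rfl⟩
    exact ContinuousLinearMap.adjoint_inner_left _ _ _
  have h3 : ∀ R, S.D.apply (cut R (fun u => (Real.exp u : ℝ)) (by fun_prop)) S.vac =
      S.D.apply (cut1 R) S.vac := by
    intro R
    set g := cut R (fun u => ((Real.exp (u / 2) : ℝ) : ℂ)) (by fun_prop) with hg
    rw [← h1 g _ fun u => by
      simp only [hg, cut_apply, mul_assoc, ← Complex.ofReal_mul, ← Real.exp_add, add_halves]]
    refine ext_inner_right ℂ fun ζ => ?_
    have := h2 (S.D.apply (cut1 R) ζ, S.J (S.D.apply g ζ)) (by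
      intro f' g' hfg
      simp only [S.J_J, ← apply_mul]
      congr 2
      ext u
      simp only [BoundedContinuousFunction.mul_apply, hfg, hg, cut_apply, cut1_apply]; ring)
    have sg : star g = g := by ext u; simp [hg, cut_apply, -Complex.ofReal_exp]
    have s1 : star (cut1 R) = cut1 R := by ext u; simp [cut1_apply]
    rw [inner_apply, inner_apply, sg, s1, ← this, hJ]
  have h4 : ∀ R, 0 ≤ R → S.D.wave t (S.D.apply (cut1 R) S.vac) = S.D.apply (cut1 R) S.vac := by
    intro R hR
    have := mono S.D (f := LineCalculus.character t * cut1 R - cut1 R)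
      (g := ((|t| * Real.exp (R + 1) : ℝ) : ℂ) •
        (cut R (fun u => (Real.exp u : ℝ)) (by fun_prop) - cut1 R)) (fun u => by
        simp only [BoundedContinuousFunction.sub_apply, BoundedContinuousFunction.mul_apply,
          cut1_apply, cut_apply, BoundedContinuousFunction.coe_smul, smul_eq_mul]
        rw [← sub_one_mul, ← mul_sub_one, norm_mul, norm_mul, norm_mul, mul_comm ‖(chi R u : ℂ)‖,
          ← mul_assoc]
        rcases le_total (R + 1) |u| with hu | hu
        · simp [chi_zero hu]
        refine mul_le_mul_of_nonneg_right ((char_sub_one t u).trans ?_) (norm_nonneg _)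
        rw [← Complex.ofReal_one, ← Complex.ofReal_sub, Complex.norm_real, Complex.norm_real,
          Real.norm_of_nonneg (by positivity), mul_assoc, Real.norm_eq_abs]
        refine mul_le_mul_of_nonneg_left ?_ (abs_nonneg _)
        have e1 : 1 ≤ Real.exp (R + 1) := Real.one_le_exp (by linarith)
        rcases le_total 0 u with h0 | h0
        · have := Real.add_one_le_exp u
          rw [abs_of_nonneg h0, abs_of_nonneg (by linarith)]
          nlinarith
        · have h5 := Real.add_one_le_exp (-u)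
          have h6 : Real.exp u * Real.exp (-u) = 1 := by rw [← Real.exp_add]; simp
          have h7 : Real.exp u ≤ 1 := Real.exp_le_one_iff.mpr h0
          rw [abs_of_nonpos h0] at hu ⊢
          have h8 : Real.exp (-u) ≤ Real.exp (R + 1) := Real.exp_le_exp.mpr hu
          rw [abs_of_nonpos (by linarith)]
          nlinarith) S.vac
    rw [map_smul, map_sub, map_sub, ContinuousLinearMap.smul_apply, ContinuousLinearMap.sub_apply,
      ContinuousLinearMap.sub_apply, h3, sub_self, smul_zero, norm_zero, norm_le_zero_iff,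
      sub_eq_zero, apply_mul] at this
    exact this
  refine eq_of_forall_dist_le fun ε hε => ?_
  obtain ⟨R, hR, hx⟩ := approx S.D S.vac (half_pos hε)
  have e : S.D.wave t S.vac - S.vac = (S.D.apply (cut1 R) S.vac - S.vac) -
      S.D.wave t (S.D.apply (cut1 R) S.vac - S.vac) := by rw [map_sub, h4 R hR]; abel
  rw [dist_eq_norm, e]
  refine (norm_sub_le _ _).trans ?_
  rw [norm_wave]; linarith

end Crest.Agent.BR
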