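import Mathlib
import Crest.Prelude.Def_ModularData
/-! Window means along a filter. -/
set_option autoImplicit false
namespace Crest.Agent.BR
open Crest.OpAlg Filter Topology MeasureTheory

variable {E F : Type*} [NormedAddCommGroup E] [NormedSpace ℝ E] [NormedAddCommGroup F]
  [NormedSpace ℝ F]

/-- average over the window `[-k, k]` -/
noncomputable def wm (g : ℝ → E) (k : ℕ) : E := (2 * k : ℝ)⁻¹ • ∫ t in (-k : ℝ)..k, g t

/-- `g` is continuous with mean `l` along `ω` -/
structure HM (ω : Filter ℕ) (g : ℝ → E) (l : E) : Prop where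
  cont : Continuous g
  lim : Tendsto (wm g) ω (𝓝 l)

theorem norm_wm_le {g : ℝ → E} {C : ℝ} (h : ∀ t, ‖g t‖ ≤ C) (k : ℕ) : ‖wm g k‖ ≤ C := by
  have hC : 0 ≤ C := (norm_nonneg _).trans (h 0)
  rcases Nat.eq_zero_or_pos k with rfl | hk
  · simp [wm, hC]
  have hk' : (0 : ℝ) < k := by exact_mod_cast hk
  have := intervalIntegral.norm_integral_le_of_norm_le_const (a := (-k : ℝ)) (b := k) (f := g)
    fun t _ => h t
  rw [wm, norm_smul, Real.norm_of_nonneg (by positivity), inv_mul_le_iff₀ (by positivity)]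
  rw [abs_of_nonneg (by linarith)] at this
  linarith

variable {ω : Filter ℕ}

theorem HM.add {g g' : ℝ → E} {l l' : E} (h : HM ω g l) (h' : HM ω g' l') :
    HM ω (fun t => g t + g' t) (l + l') :=
  ⟨h.cont.add h'.cont, (h.lim.add h'.lim).congr fun k => by
    simp only [wm]
    rw [intervalIntegral.integral_add (h.cont.intervalIntegrable _ _)
      (h'.cont.intervalIntegrable _ _), smul_add]⟩

theorem HM.clm [CompleteSpace E] [CompleteSpace F] (L : E →L[ℝ] F) {g : ℝ → E} {l : E}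
    (h : HM ω g l) : HM ω (fun t => L (g t)) (L l) :=
  ⟨L.continuous.comp h.cont, ((L.continuous.tendsto l).comp h.lim).congr fun k => by
    simp only [wm, Function.comp, map_smul]
    rw [L.intervalIntegral_comp_comm (h.cont.intervalIntegrable _ _)]⟩

theorem HM.cmul (c : ℂ) {g : ℝ → ℂ} {l : ℂ} (h : HM ω g l) : HM ω (fun t => c * g t) (c * l) :=
  h.clm (ContinuousLinearMap.mul ℝ ℂ c)

theorem HM.rmul (c : ℝ) {g : ℝ → ℝ} {l : ℝ} (h : HM ω g l) : HM ω (fun t => c * g t) (c * l) :=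
  h.clm (ContinuousLinearMap.mul ℝ ℝ c)

theorem HM.re {g : ℝ → ℂ} {l : ℂ} (h : HM ω g l) : HM ω (fun t => (g t).re) l.re :=
  h.clm Complex.reCLM

theorem HM.const [CompleteSpace E] (hω : ω ≤ atTop) (c : E) : HM ω (fun _ => c) c :=
  ⟨continuous_const, tendsto_const_nhds.congr'
    (((eventually_gt_atTop 0).filter_mono hω).mono fun k hk => by
      have hk' : (0 : ℝ) < k := by exact_mod_cast hk
      simp only [wm, intervalIntegral.integral_const, smul_smul]
      rw [show (2 * k : ℝ)⁻¹ * (k - -k) = 1 by field_simp; ring, one_smul])⟩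

theorem HM.refl {g : ℝ → E} {l : E} (h : HM ω g l) : HM ω (fun t => g (-t)) l :=
  ⟨h.cont.comp continuous_neg, h.lim.congr fun k => by
    simp only [wm]
    rw [intervalIntegral.integral_comp_neg, neg_neg]⟩

theorem HM.shift (hω : ω ≤ atTop) {g : ℝ → E} {l : E} (h : HM ω g l) {C : ℝ} (hC : ∀ t, ‖g t‖ ≤ C)
    (r : ℝ) : HM ω (fun t => g (t + r)) l := by
  refine ⟨h.cont.comp (by fun_prop), ?_⟩
  have h0 : Tendsto (fun k : ℕ => wm (fun t => g (t + r)) k - wm g k) ω (𝓝 0) := by
    have h1 : Tendsto (fun k : ℕ => C * |r| / k) ω (𝓝 0) :=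
      (tendsto_const_div_atTop_nhds_zero_nat _).mono_left hω
    refine squeeze_zero_norm (fun k => ?_) h1
    have hi := fun a b => h.cont.intervalIntegrable (μ := volume) a b
    have e : (∫ t in (-k : ℝ)..k, g (t + r)) - ∫ t in (-k : ℝ)..k, g t =
        (∫ t in (k : ℝ)..k + r, g t) - ∫ t in (-k : ℝ)..-k + r, g t := by
      rw [intervalIntegral.integral_comp_add_right,
        intervalIntegral.integral_interval_sub_interval_comm' (hi _ _) (hi _ _) (hi _ _)]
    have b1 := intervalIntegral.norm_integral_le_of_norm_le_const (a := (k : ℝ)) (b := k + r)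
      (f := g) fun t _ => hC t
    have b2 := intervalIntegral.norm_integral_le_of_norm_le_const (a := (-k : ℝ)) (b := -k + r)
      (f := g) fun t _ => hC t
    rw [add_sub_cancel_left] at b1 b2
    rw [wm, wm, ← smul_sub, e, norm_smul, Real.norm_of_nonneg (by positivity)]
    calc _ ≤ (2 * k : ℝ)⁻¹ * (C * |r| + C * |r|) :=
          mul_le_mul_of_nonneg_left (norm_sub_le_of_le b1 b2) (by positivity)
      _ = _ := by ring
  simpa using h0.add h.lim

theorem HM.unique [ω.NeBot] {g : ℝ → E} {l l' : E} (h : HM ω g l) (h' : HM ω g l') : l = l' :=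
  tendsto_nhds_unique h.lim h'.lim

theorem HM.norm_le [ω.NeBot] {g : ℝ → E} {l : E} (h : HM ω g l) {C : ℝ} (hC : ∀ t, ‖g t‖ ≤ C) :
    ‖l‖ ≤ C :=
  le_of_tendsto' h.lim.norm (norm_wm_le hC)

theorem HM.le [ω.NeBot] {g g' : ℝ → ℝ} {l l' : ℝ} (h : HM ω g l) (h' : HM ω g' l')
    (hle : ∀ t, g t ≤ g' t) : l ≤ l' :=
  le_of_tendsto_of_tendsto' h.lim h'.lim fun k => by
    have hk : (0 : ℝ) ≤ k := k.cast_nonneg
    exact mul_le_mul_of_nonneg_left (intervalIntegral.integral_mono (by linarith)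
      (h.cont.intervalIntegrable _ _) (h'.cont.intervalIntegrable _ _) hle) (by positivity)

theorem HM.exists_lt [ω.NeBot] (hω : ω ≤ atTop) {g : ℝ → ℝ} {l c : ℝ} (h : HM ω g l) (hc : c < l) :
    ∃ t, c < g t := by
  by_contra hn
  push Not at hn
  exact absurd (h.le (HM.const hω c) hn) (not_le.mpr hc)

theorem exists_HM [ProperSpace E] (ω : Ultrafilter ℕ) {g : ℝ → E} (hg : Continuous g) {C : ℝ}
    (hC : ∀ t, ‖g t‖ ≤ C) : ∃ l, HM (ω : Filter ℕ) g l := by
  obtain ⟨l, -, hl⟩ := (isCompact_closedBall (0 : E) C).ultrafilter_le_nhds (ω.map (wm g))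
    (le_principal_iff.mpr (Eventually.of_forall fun n => mem_closedBall_zero_iff.mpr
      (norm_wm_le hC n) : ∀ᶠ n in ω, wm g n ∈ Metric.closedBall (0 : E) C))
  exact ⟨l, hg, hl⟩

theorem HM.ultraMean {ω : Ultrafilter ℕ} {g : ℝ → ℝ} {l : ℝ} (h : HM (ω : Filter ℕ) g l) :
    ultraMean ω g = l := by
  have e : windowMean g = wm g := by
    funext k
    have hk : (0 : ℝ) ≤ k := k.cast_nonneg
    rw [windowMean, wm, setAverage_eq, intervalIntegral.integral_of_le (by linarith),
      integral_Icc_eq_integral_Ioc, Real.volume_real_Icc_of_le (by linarith)]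
    congr 2; ring
  rw [Crest.OpAlg.ultraMean, e]
  exact h.lim.limUnder_eq

end Crest.Agent.BR
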