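import Crest.Agent.BR.Calc
import Crest.Agent.BR.Mean
/-! Ergodic averages, filtering and truncation inside the algebra. -/
set_option autoImplicit false
namespace Crest.Agent.BR
open Crest.OpAlg Filter Topology MeasureTheory BoundedContinuousFunction
open scoped InnerProductSpace FourierTransform

variable {H : Type*} [NormedAddCommGroup H] [InnerProductSpace ℂ H] [CompleteSpace H]

theorem wave_cont₂ (D : LineCalculus H) {p : ℝ → ℝ} {x : ℝ → H} (hp : Continuous p)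
    (hx : Continuous x) : Continuous fun t => D.wave (p t) (x t) :=
  (continuous_prod_of_continuous_lipschitzWith (fun q : H × ℝ => D.wave q.2 q.1) 1
    (fun a => wave_cont D a) fun b => LipschitzWith.of_dist_le_mul fun y z => by
      simp [dist_eq_norm, ← map_sub, norm_wave]).comp (hx.prodMk hp)

theorem mem_of_comm {M : VonNeumannAlgebra H} {b : H →L[ℂ] H}
    (h : ∀ y : H →L[ℂ] H, (∀ g ∈ M, g * y = y * g) → y * b = b * y) : b ∈ M := by
  rw [← M.commutant_commutant, VonNeumannAlgebra.mem_commutant_iff]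
  exact fun y hy => h y (VonNeumannAlgebra.mem_commutant_iff.mp hy)

variable (S : ModularDatum H)

theorem flow_apply (t : ℝ) (a : H →L[ℂ] H) (η : H) :
    S.flow t a η = S.D.wave t (a (S.D.wave (-t) η)) := rfl

theorem flow_mem (t : ℝ) {a : H →L[ℂ] H} (ha : a ∈ S.M) : S.flow t a ∈ S.M := S.flow_mem t a ha

theorem flow_cont (a : H →L[ℂ] H) (η : H) {p : ℝ → ℝ} (hp : Continuous p) :
    Continuous fun t => S.flow (p t) a η :=
  wave_cont₂ S.D hp (a.continuous.comp ((wave_cont S.D η).comp hp.neg))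

theorem norm_flow (t : ℝ) (a : H →L[ℂ] H) (η : H) : ‖S.flow t a η‖ ≤ ‖a‖ * ‖η‖ := by
  rw [flow_apply, norm_wave, ← norm_wave S.D (-t) η]; exact a.le_opNorm _

theorem flow_vac (t : ℝ) (a : H →L[ℂ] H) : S.flow t a S.vac = S.D.wave t (a S.vac) := by
  rw [flow_apply, wave_vac]

theorem star_flow (t : ℝ) (a : H →L[ℂ] H) : star (S.flow t a) = S.flow t (star a) := by
  simp only [ModularDatum.flow, star_mul, star_wave, neg_neg, mul_assoc]

theorem ergodic_mean (herg : S.Ergodic) (ω : Ultrafilter ℕ) (hω : (ω : Filter ℕ) ≤ atTop)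
    {a : H →L[ℂ] H} (ha : a ∈ S.M) (η ζ : H) :
    HM ω (fun t => ⟪S.flow t a η, ζ⟫_ℂ) (⟪a S.vac, S.vac⟫_ℂ * ⟪η, ζ⟫_ℂ) := by
  have hb : ∀ η ζ t, ‖⟪S.flow t a η, ζ⟫_ℂ‖ ≤ ‖a‖ * ‖η‖ * ‖ζ‖ := fun η ζ t =>
    (norm_inner_le_norm _ _).trans (mul_le_mul_of_nonneg_right (norm_flow S t a η) (norm_nonneg _))
  have hl : ∀ η ζ : H, ∃ l, HM ω (fun t => ⟪S.flow t a η, ζ⟫_ℂ) l := fun η ζ =>
    exists_HM ω ((flow_cont S a η continuous_id).inner continuous_const) (hb η ζ)
  choose b hb' using hl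
  let B₀ : H →ₗ⋆[ℂ] H →ₗ[ℂ] ℂ := LinearMap.mk₂'ₛₗ (starRingEnd ℂ) (RingHom.id ℂ) b
    (fun x y z => (hb' (x + y) z).unique (by
      simpa only [map_add, inner_add_left] using (hb' x z).add (hb' y z)))
    (fun c x z => (hb' (c • x) z).unique (by
      simpa only [map_smul, inner_smul_left, smul_eq_mul] using (hb' x z).cmul (starRingEnd ℂ c)))
    (fun x y z => (hb' x (y + z)).unique (by
      simpa only [inner_add_right] using (hb' x y).add (hb' x z)))
    (fun c x z => (hb' x (c • z)).unique (by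
      simpa only [inner_smul_right, smul_eq_mul, RingHom.id_apply] using (hb' x z).cmul c))
  let B : H →L[ℂ] H := InnerProductSpace.continuousLinearMapOfBilin
    (B₀.mkContinuous₂ ‖a‖ fun η ζ => (hb' η ζ).norm_le (hb η ζ))
  have hB : ∀ η ζ, ⟪B η, ζ⟫_ℂ = b η ζ := fun η ζ =>
    InnerProductSpace.continuousLinearMapOfBilin_apply _ _ _
  have hBM : B ∈ S.M := mem_of_comm fun y hy => by
    ext η
    refine ext_inner_right ℂ fun ζ => ?_
    rw [ContinuousLinearMap.mul_apply, ContinuousLinearMap.mul_apply,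
      ← ContinuousLinearMap.adjoint_inner_right, hB, hB]
    refine (hb' _ _).unique ?_
    convert hb' (y η) ζ using 2 with t
    rw [ContinuousLinearMap.adjoint_inner_right, ← ContinuousLinearMap.mul_apply,
      ← hy _ (flow_mem S t ha), ContinuousLinearMap.mul_apply]
  obtain ⟨c, hc⟩ := herg B hBM fun r => by
    ext η
    refine ext_inner_right ℂ fun ζ => ?_
    rw [flow_apply, inner_wave, hB, hB]
    refine (hb' _ _).unique ?_
    convert (hb' η ζ).shift hω (hb η ζ) r using 2 with t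
    rw [← inner_wave]
    simp only [flow_apply, wave_wave]
    rw [add_comm r t, neg_add]
  have h1 : ∀ η ζ, b η ζ = starRingEnd ℂ c * ⟪η, ζ⟫_ℂ := fun η ζ => by
    rw [← hB, hc, ← inner_smul_left]; rfl
  have h2 : b S.vac S.vac = ⟪a S.vac, S.vac⟫_ℂ := (hb' _ _).unique (by
    convert HM.const hω ⟪a S.vac, S.vac⟫_ℂ using 2 with t
    rw [flow_vac, inner_wave, wave_vac])
  rw [h1, inner_self_eq_norm_sq_to_K, S.norm_vac] at h2
  rw [← h2]
  simpa [h1] using hb' η ζ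

theorem re_star_mul (b : H →L[ℂ] H) (η : H) : (⟪(star b * b) η, η⟫_ℂ).re = ‖b η‖ ^ 2 := by
  rw [ContinuousLinearMap.mul_apply, ContinuousLinearMap.star_eq_adjoint,
    ContinuousLinearMap.adjoint_inner_left, ← inner_self_eq_norm_sq (𝕜 := ℂ)]; rfl

theorem inner_star_mul (b : H →L[ℂ] H) (η : H) : ⟪(star b * b) η, η⟫_ℂ = ((‖b η‖ ^ 2 : ℝ) : ℂ) := by
  rw [ContinuousLinearMap.mul_apply, ContinuousLinearMap.star_eq_adjoint,
    ContinuousLinearMap.adjoint_inner_left, inner_self_eq_norm_sq_to_K]; simp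

theorem ergodic_sq (herg : S.Ergodic) (ω : Ultrafilter ℕ) (hω : (ω : Filter ℕ) ≤ atTop)
    {b : H →L[ℂ] H} (hb : b ∈ S.M) (η : H) :
    HM ω (fun t => ‖b (S.D.wave (-t) η)‖ ^ 2) (‖b S.vac‖ ^ 2 * ‖η‖ ^ 2) := by
  convert (ergodic_mean S herg ω hω (mul_mem (star_mem hb) hb) η η).re using 1
  · funext t
    rw [flow_apply, inner_wave, re_star_mul]
  · rw [inner_star_mul, Complex.re_ofReal_mul, ← inner_self_eq_norm_sq (𝕜 := ℂ) η]; rfl

/-- smoothing of an operator along the flow -/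
theorem exists_filter {k : ℝ → ℂ} (hk : Integrable k) (c : ℝ) (f : ℝ →ᵇ ℂ)
    (hf : ∀ u, f u = ∫ t, k t * LineCalculus.character (c * t) u) {a : H →L[ℂ] H} (ha : a ∈ S.M) :
    ∃ w ∈ S.M, ‖w‖ ≤ (∫ t, ‖k t‖) * ‖a‖ ∧ w S.vac = S.D.apply f (a S.vac) := by
  have hi : ∀ η, Integrable fun t => k t • S.flow (c * t) a η := fun η =>
    integrable_wave hk (flow_cont S a η (by fun_prop)) fun t => norm_flow S _ a η
  have hK : 0 ≤ ∫ t, ‖k t‖ := integral_nonneg fun _ => norm_nonneg _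
  let w₀ : H →ₗ[ℂ] H :=
    { toFun := fun η => ∫ t, k t • S.flow (c * t) a η
      map_add' := fun x y => by simp only [map_add, smul_add]; exact integral_add (hi x) (hi y)
      map_smul' := fun r x => by
        simp only [map_smul, RingHom.id_apply, smul_comm _ r, integral_smul] }
  have hw : ∀ η, ‖w₀ η‖ ≤ (∫ t, ‖k t‖) * ‖a‖ * ‖η‖ := fun η => by
    rw [mul_assoc, ← integral_mul_const]
    refine norm_integral_le_of_norm_le (hk.norm.mul_const _) (Eventually.of_forall fun t => ?_)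
    rw [norm_smul]
    exact mul_le_mul_of_nonneg_left (norm_flow S _ a η) (norm_nonneg _)
  refine ⟨w₀.mkContinuous _ hw, mem_of_comm fun y hy => ?_,
    LinearMap.mkContinuous_norm_le _ (by positivity) _, ?_⟩
  · ext η
    change y (∫ t, k t • S.flow (c * t) a η) = ∫ t, k t • S.flow (c * t) a (y η)
    rw [← y.integral_comp_comm (hi η)]
    congr 1
    funext t
    rw [map_smul, ← ContinuousLinearMap.mul_apply, ← hy _ (flow_mem S _ ha),
      ContinuousLinearMap.mul_apply]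
  · change ∫ t, k t • S.flow (c * t) a S.vac = _
    simp only [flow_vac]
    exact integral_wave S.D hk c f hf _

theorem smul_mem' {M : VonNeumannAlgebra H} (c : ℂ) {v : H →L[ℂ] H} (hv : v ∈ M) : c • v ∈ M :=
  M.toStarSubalgebra.smul_mem hv c

theorem exists_inv {M : VonNeumannAlgebra H} {v : H →L[ℂ] H} (hv : v ∈ M) {r : ℝ} (hr0 : 0 < r) :
    ∃ b ∈ M, (∀ η, η = b η + (r : ℂ) • (star v * v) (b η)) ∧
      ∀ η, η = b η + (r : ℂ) • b ((star v * v) η) := by
  obtain ⟨u, hu⟩ : ∃ u : H →L[ℂ] H, u = 1 + (r : ℂ) • (star v * v) := ⟨_, rfl⟩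
  have hu' : ∀ ζ, u ζ = ζ + (r : ℂ) • (star v * v) ζ := fun ζ => by rw [hu]; rfl
  have hin : ∀ ζ, ⟪u ζ, ζ⟫_ℂ = ((‖ζ‖ ^ 2 + r * ‖v ζ‖ ^ 2 : ℝ) : ℂ) := fun ζ => by
    rw [hu', inner_add_left, inner_smul_left, inner_star_mul, inner_self_eq_norm_sq_to_K]
    simp
  obtain ⟨U, hU⟩ : IsUnit u :=
    ContinuousLinearMap.isUnit_of_forall_le_norm_inner_map u (c := 1) one_pos fun ζ => by
      rw [hin, Complex.norm_real, Real.norm_of_nonneg (by positivity)]
      simp only [NNReal.coe_one, mul_one, le_add_iff_nonneg_right]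
      positivity
  have huM : u ∈ M := hu ▸ add_mem (one_mem _) (smul_mem' _ (mul_mem (star_mem hv) hv))
  refine ⟨↑U⁻¹, mem_of_comm fun y hy => ?_, fun η => ?_, fun η => ?_⟩
  · have : Commute y (U : H →L[ℂ] H) := by rw [hU]; exact (hy u huM).symm
    exact this.units_inv_right.eq
  · rw [← hu', ← hU, ← ContinuousLinearMap.mul_apply, U.mul_inv]; rfl
  · rw [← map_smul, ← map_add, ← hu', ← hU, ← ContinuousLinearMap.mul_apply, U.inv_mul]; rfl

/-- truncation -/
theorem exists_trunc {M : VonNeumannAlgebra H} {v : H →L[ℂ] H} (hv : v ∈ M) {L : ℝ} (hL : 0 < L) :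
    ∃ v' ∈ M, ‖v'‖ ≤ L ∧ ∀ ξ, ‖v ξ - v' ξ‖ ≤ ‖(star v * v) ξ‖ / (2 * L) := by
  obtain ⟨r, hr⟩ : ∃ r : ℝ, r = (2 * L ^ 2)⁻¹ := ⟨_, rfl⟩
  have hr0 : 0 < r := by rw [hr]; positivity
  obtain ⟨b, hb, e1, e2⟩ := exists_inv hv hr0
  have hn : ∀ η, ‖v (b η)‖ ≤ L * ‖η‖ := fun η => by
    refine (abs_le_of_sq_le_sq' ?_ (by positivity)).2
    have h1 := norm_add_sq (𝕜 := ℂ) (b η) ((r : ℂ) • (star v * v) (b η))
    rw [← e1, inner_smul_right, ← inner_conj_symm, inner_star_mul, Complex.conj_ofReal,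
      ← Complex.ofReal_mul] at h1
    have h2 : 2 * (r * ‖v (b η)‖ ^ 2) ≤ ‖η‖ ^ 2 := by
      rw [h1]
      change _ ≤ _ + 2 * (r * ‖v (b η)‖ ^ 2) + _
      have := sq_nonneg ‖b η‖
      have := sq_nonneg ‖(r : ℂ) • (star v * v) (b η)‖
      linarith
    have h3 : ‖v (b η)‖ ^ 2 = L ^ 2 * (2 * (r * ‖v (b η)‖ ^ 2)) := by rw [hr]; field_simp
    rw [h3, mul_pow]
    exact mul_le_mul_of_nonneg_left h2 (sq_nonneg _)
  refine ⟨v * b, mul_mem hv hb, ContinuousLinearMap.opNorm_le_bound _ hL.le hn, fun ξ => ?_⟩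
  have e3 : v ξ - (v * b) ξ = (r : ℂ) • v (b ((star v * v) ξ)) := by
    rw [ContinuousLinearMap.mul_apply, ← map_sub, ← map_smul, sub_eq_of_eq_add' (e2 ξ)]
  rw [e3, norm_smul, Complex.norm_real, Real.norm_of_nonneg hr0.le]
  calc _ ≤ r * (L * ‖(star v * v) ξ‖) := mul_le_mul_of_nonneg_left (hn _) hr0.le
    _ = _ := by rw [hr]; field_simp

/-- a bump which is the inverse Fourier transform of an integrable kernel -/
theorem exists_kernel : ∃ C : ℝ, ∀ s δ : ℝ, 0 < δ → ∃ (k : ℝ → ℂ) (c : ℝ) (f : ℝ →ᵇ ℂ),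
    Integrable k ∧ ∫ t, ‖k t‖ = C ∧ (∀ u, f u = ∫ t, k t * LineCalculus.character (c * t) u) ∧
    (∀ u, ‖f u‖ ≤ 1) ∧ (∀ u ∈ Set.Icc (s - δ) (s + δ), f u = 1) ∧
    ∀ u, u ∉ Set.Icc (s - 4 * δ) (s + 4 * δ) → f u = 0 := by
  let φ : ContDiffBump (0 : ℝ) := ⟨1, 2, one_pos, one_lt_two⟩
  let F : ℝ → ℂ := fun u => φ u
  have hs : HasCompactSupport F := φ.hasCompactSupport.comp_left Complex.ofReal_zero
  have hd : ContDiff ℝ (⊤ : ℕ∞) F := Complex.ofRealCLM.contDiff.comp φ.contDiff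
  have hi : Integrable (𝓕 F) := (𝓕 (hs.toSchwartzMap hd)).integrable
  have hinv := hd.continuous.fourierInv_fourier_eq (hs.toSchwartzMap hd).integrable hi
  have hF : ∀ u, ‖F u‖ ≤ 1 := fun u => by
    rw [Complex.norm_real, Real.norm_of_nonneg φ.nonneg]; exact φ.le_one
  refine ⟨∫ t, ‖𝓕 F t‖, fun s δ hδ =>
    ⟨fun t => 𝓕 F t * LineCalculus.character (2 * Real.pi / δ * t) (-s), 2 * Real.pi / δ,
      ofNormedAddCommGroup (fun u => F ((u - s) / δ)) (hd.continuous.comp (by fun_prop)) 1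
        fun u => hF _, ?_, ?_, fun u => ?_, fun u => hF _, fun u hu => ?_, fun u hu => ?_⟩⟩
  · refine hi.mul_bdd (c := 1) (Continuous.aestronglyMeasurable ?_)
      (Eventually.of_forall fun t => (norm_char _ _).le)
    simp only [char_apply]; fun_prop
  · simp only [norm_mul, norm_char, mul_one]
  · change F ((u - s) / δ) = _
    rw [← congrFun hinv, Real.fourierInv_eq']
    congr 1
    funext t
    beta_reduce
    rw [smul_eq_mul, mul_comm, mul_assoc (𝓕 F t), char_apply, char_apply, ← Complex.exp_add]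
    congr 2
    simp only [RCLike.inner_apply, conj_trivial]
    push_cast; ring
  · change ((φ ((u - s) / δ) : ℝ) : ℂ) = 1
    rw [φ.one_of_mem_closedBall, Complex.ofReal_one]
    rw [mem_closedBall_zero_iff, Real.norm_eq_abs, abs_div, abs_of_pos hδ, div_le_iff₀ hδ, abs_le]
    change -(1 * δ) ≤ _ ∧ _ ≤ 1 * δ
    constructor <;> linarith [hu.1, hu.2]
  · change ((φ ((u - s) / δ) : ℝ) : ℂ) = 0
    rw [φ.zero_of_le_dist, Complex.ofReal_zero]
    rw [dist_zero_right, Real.norm_eq_abs, abs_div, abs_of_pos hδ, le_div_iff₀ hδ]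
    change 2 * δ ≤ _
    by_contra hn
    have := abs_lt.mp (not_le.mp hn)
    exact hu ⟨by linarith, by linarith⟩

end Crest.Agent.BR
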