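import Crest.Agent.BR.Erg
/-! The greedy random-phase construction. -/
set_option autoImplicit false
namespace Crest.Agent.BR
open Crest.OpAlg Filter Topology MeasureTheory BoundedContinuousFunction
open scoped InnerProductSpace

variable {H : Type*} [NormedAddCommGroup H] [InnerProductSpace ℂ H] [CompleteSpace H]

omit [CompleteSpace H] in
theorem four (α β γ : H) (N : ℂ → ℝ) (hN : ∀ ε : ℂ, starRingEnd ℂ ε * ε = 1 →
    N ε = ‖α + ε • β + starRingEnd ℂ ε • γ‖ ^ 2) :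
    N 1 + N (-1) + N Complex.I + N (-Complex.I) = 4 * (‖α‖ ^ 2 + ‖β‖ ^ 2 + ‖γ‖ ^ 2) := by
  rw [hN 1 (by simp), hN (-1) (by simp), hN Complex.I (by simp), hN (-Complex.I) (by simp)]
  have h1 := parallelogram_law_with_norm ℂ α (β + γ)
  have h2 := parallelogram_law_with_norm ℂ α (Complex.I • (β - γ))
  have h3 := parallelogram_law_with_norm ℂ β γ
  rw [norm_smul, Complex.norm_I, one_mul] at h2
  have e1 : α + (1 : ℂ) • β + starRingEnd ℂ 1 • γ = α + (β + γ) := by simp [add_assoc]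
  have e2 : α + (-1 : ℂ) • β + starRingEnd ℂ (-1) • γ = α - (β + γ) := by simp; abel
  have e3 : α + Complex.I • β + starRingEnd ℂ Complex.I • γ = α + Complex.I • (β - γ) := by
    simp [smul_sub]; abel
  have e4 : α + (-Complex.I) • β + starRingEnd ℂ (-Complex.I) • γ = α - Complex.I • (β - γ) := by
    simp [smul_sub]; abel
  rw [e1, e2, e3, e4]
  nlinarith

variable (S : ModularDatum H) (T : H →L[ℂ] H)

/-- signal -/
noncomputable def RR (v : H →L[ℂ] H) : ℝ := ‖T (v S.vac)‖ ^ 2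
/-- fourth moment -/
noncomputable def QQ (v : H →L[ℂ] H) : ℝ := ‖(star v * v) S.vac‖ ^ 2
/-- second moments -/
noncomputable def PP (v : H →L[ℂ] H) : ℝ := ‖v S.vac‖ ^ 2 + ‖star v S.vac‖ ^ 2

theorem phase (v w : H →L[ℂ] H) (l μ : ℝ) : ∃ ε : ℂ,
    RR S T v + RR S T w - l * (‖(star v * v) S.vac + (star w * w) S.vac‖ ^ 2 +
      ‖star v (w S.vac)‖ ^ 2 + ‖star w (v S.vac)‖ ^ 2) - μ * (PP S v + PP S w) ≤
    RR S T (v + ε • w) - l * QQ S (v + ε • w) - μ * PP S (v + ε • w) := by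
  by_contra hn
  push Not at hn
  have h1 := four (T (v S.vac)) (T (w S.vac)) 0 (fun ε => RR S T (v + ε • w)) fun ε _ => by
    simp [RR]
  have h2 := four ((star v * v) S.vac + (star w * w) S.vac) (star v (w S.vac)) (star w (v S.vac))
    (fun ε => QQ S (v + ε • w)) fun ε hε => by
      simp only [QQ, star_add, star_smul, mul_add, add_mul, smul_mul_assoc, mul_smul_comm,
        smul_smul, ContinuousLinearMap.add_apply, ContinuousLinearMap.smul_apply, smul_add,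
        ContinuousLinearMap.mul_apply, RCLike.star_def]
      rw [mul_comm ε, hε, one_smul]
      congr 2; abel
  have h3 := four (v S.vac) (w S.vac) 0 (fun ε => ‖(v + ε • w) S.vac‖ ^ 2) fun ε _ => by simp
  have h4 := four (star v S.vac) 0 (star w S.vac) (fun ε => ‖star (v + ε • w) S.vac‖ ^ 2)
    fun ε _ => by simp
  have a1 := hn 1
  have a2 := hn (-1)
  have a3 := hn Complex.I
  have a4 := hn (-Complex.I)
  simp only [PP] at a1 a2 a3 a4
  simp only [norm_zero] at h1 h3 h4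
  have h2' := congrArg (l * ·) h2
  have h3' := congrArg (μ * ·) h3
  have h4' := congrArg (μ * ·) h4
  simp only [RR] at h1 a1 a2 a3 a4
  linarith

theorem step (herg : S.Ergodic) (ω : Ultrafilter ℕ) (hω : (ω : Filter ℕ) ≤ atTop)
    {z v : H →L[ℂ] H} (hz : z ∈ S.M) (hv : v ∈ S.M) {a : ℝ}
    (ha : HM ω (fun t => ‖T (S.D.wave t (z S.vac))‖ ^ 2) a) {l : ℝ} (hl : 0 ≤ l) (μ : ℝ) {η : ℝ}
    (hη : 0 < η) : ∃ v' ∈ S.M,
      RR S T v + a - l * (QQ S v + ‖z‖ ^ 4 + 2 * (PP S z * PP S v)) - μ * (PP S v + PP S z) - η ≤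
        RR S T v' - l * QQ S v' - μ * PP S v' := by
  have m1 := (ergodic_mean S herg ω hω (mul_mem (star_mem hz) hz) S.vac ((star v * v) S.vac)).re
  have m2 := (ergodic_sq S herg ω hω (star_mem hv) (z S.vac)).refl
  have m3 := ergodic_sq S herg ω hω (star_mem hz) (v S.vac)
  rw [inner_star_mul, ← inner_conj_symm, inner_star_mul, Complex.conj_ofReal, ← Complex.ofReal_mul,
    Complex.ofReal_re] at m1
  have m := (ha.add ((((m1.rmul 2).add m2).add m3).rmul (-l))).add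
    (HM.const hω (RR S T v - l * (QQ S v + QQ S z) - μ * (PP S v + PP S z)))
  obtain ⟨t, ht⟩ := m.exists_lt hω (sub_lt_self _ hη)
  obtain ⟨ε, hε⟩ := phase S T v (S.flow t z) l μ
  refine ⟨v + ε • S.flow t z, add_mem hv (smul_mem' _ (flow_mem S t hz)), le_trans ?_ hε⟩
  have e1 : RR S T (S.flow t z) = ‖T (S.D.wave t (z S.vac))‖ ^ 2 := by rw [RR, flow_vac]
  have e2 : PP S (S.flow t z) = PP S z := by
    rw [PP, PP, star_flow, flow_vac, flow_vac, norm_wave, norm_wave]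
  have e3 : (star (S.flow t z) * S.flow t z) S.vac = S.flow t (star z * z) S.vac := by
    rw [star_flow, ContinuousLinearMap.mul_apply, flow_vac, flow_vac, flow_apply, wave_wave,
      neg_add_cancel, wave_zero]; rfl
  have e4 : ‖star (S.flow t z) (v S.vac)‖ = ‖star z (S.D.wave (-t) (v S.vac))‖ := by
    rw [star_flow, flow_apply, norm_wave]
  have e5 : ‖(star v * v) S.vac + S.flow t (star z * z) S.vac‖ ^ 2 = QQ S v + QQ S z +
      2 * (⟪S.flow t (star z * z) S.vac, (star v * v) S.vac⟫_ℂ).re := by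
    rw [add_comm, norm_add_sq (𝕜 := ℂ), QQ, QQ, flow_vac, norm_wave, RCLike.re_to_complex]; ring
  rw [e1, e2, e3, e4, e5, flow_vac S t z]
  simp only [neg_neg] at ht
  have b1 : QQ S z ≤ ‖z‖ ^ 4 := by
    have := (star z * z).le_opNorm S.vac
    rw [CStarRing.norm_star_mul_self, S.norm_vac, mul_one] at this
    calc _ ≤ (‖z‖ * ‖z‖) ^ 2 := pow_le_pow_left₀ (norm_nonneg _) this 2
      _ = _ := by ring
  have b2 : 2 * (‖z S.vac‖ ^ 2 * ‖v S.vac‖ ^ 2) + ‖star v S.vac‖ ^ 2 * ‖z S.vac‖ ^ 2 +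
      ‖star z S.vac‖ ^ 2 * ‖v S.vac‖ ^ 2 ≤ 2 * (PP S z * PP S v) := by
    simp only [PP]
    have := mul_nonneg (sq_nonneg ‖star z S.vac‖) (sq_nonneg ‖v S.vac‖)
    have := mul_nonneg (sq_nonneg ‖star z S.vac‖) (sq_nonneg ‖star v S.vac‖)
    have := mul_nonneg (sq_nonneg ‖z S.vac‖) (sq_nonneg ‖star v S.vac‖)
    linarith
  have := mul_le_mul_of_nonneg_left (add_le_add b1 b2) hl
  linarith

theorem PP_nonneg (v : H →L[ℂ] H) : 0 ≤ PP S v := by unfold PP; positivity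

theorem iter (herg : S.Ergodic) (ω : Ultrafilter ℕ) (hω : (ω : Filter ℕ) ≤ atTop)
    {z : H →L[ℂ] H} (hz : z ∈ S.M) {a : ℝ}
    (ha : HM ω (fun t => ‖T (S.D.wave t (z S.vac))‖ ^ 2) a) {l p : ℝ} (hl : 0 ≤ l) (hp : PP S z ≤ p)
    {η : ℝ} (hη : 0 < η) (N : ℕ) (m : ℕ) (hm : m ≤ N) : ∃ v ∈ S.M,
      m * (a - l * ‖z‖ ^ 4 - 2 * l * N * p ^ 2 - η) ≤
        RR S T v - l * QQ S v - 2 * l * p * (N - m) * PP S v := by
  induction m with
  | zero => exact ⟨0, zero_mem _, by simp [RR, QQ, PP]⟩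
  | succ m ih =>
    obtain ⟨v, hv, h⟩ := ih (by omega)
    obtain ⟨v', hv', h'⟩ := step S T herg ω hω hz hv ha hl (2 * l * p * (N - (m + 1 : ℕ))) hη
    refine ⟨v', hv', le_trans ?_ h'⟩
    have h0 := PP_nonneg S z
    have hp0 : 0 ≤ p := h0.trans hp
    have h1 := mul_le_mul_of_nonneg_left (mul_le_mul_of_nonneg_right hp (PP_nonneg S v)) hl
    have hm' : ((m + 1 : ℕ) : ℝ) ≤ N := by exact_mod_cast hm
    have h2 : ((N : ℝ) - (m + 1 : ℕ)) * PP S z ≤ N * p :=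
      mul_le_mul (sub_le_self _ (Nat.cast_nonneg _)) hp h0 (Nat.cast_nonneg _)
    have h3 := mul_le_mul_of_nonneg_left h2 (mul_nonneg hl hp0)
    push_cast at h3 ⊢
    linarith

theorem greedy (herg : S.Ergodic) (ω : Ultrafilter ℕ) (hω : (ω : Filter ℕ) ≤ atTop)
    {x : H →L[ℂ] H} (hx : x ∈ S.M) {a : ℝ}
    (ha : HM ω (fun t => ‖T (S.D.wave t (x S.vac))‖ ^ 2) a) {l p α : ℝ} (hl : 0 ≤ l)
    (hp : PP S x ≤ p) (hα : 0 < α) (hαa : α ≤ a) (hlp : 8 * l * p ^ 2 ≤ α) :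
    ∃ v ∈ S.M, α / 2 ≤ RR S T v - l * QQ S v := by
  obtain ⟨N, hN⟩ := exists_nat_gt (8 * l * ‖x‖ ^ 4 / α)
  have hN0 : (0 : ℝ) < N := lt_of_le_of_lt (by positivity) hN
  rw [div_lt_iff₀ hα] at hN
  obtain ⟨r, hr0, hr⟩ : ∃ r : ℝ, 0 ≤ r ∧ r ^ 2 = (N : ℝ)⁻¹ :=
    ⟨√(N : ℝ)⁻¹, Real.sqrt_nonneg _, Real.sq_sqrt (by positivity)⟩
  have hn : ∀ y : H, ‖(r : ℂ) • y‖ ^ 2 = (N : ℝ)⁻¹ * ‖y‖ ^ 2 := fun y => by
    rw [norm_smul, Complex.norm_real, Real.norm_of_nonneg hr0, mul_pow, hr]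
  have ha' : HM ω (fun t => ‖T (S.D.wave t (((r : ℂ) • x) S.vac))‖ ^ 2) ((N : ℝ)⁻¹ * a) := by
    simpa only [ContinuousLinearMap.smul_apply, map_smul, hn] using ha.rmul (N : ℝ)⁻¹
  have hp' : PP S ((r : ℂ) • x) ≤ (N : ℝ)⁻¹ * p := by
    refine le_trans (le_of_eq ?_) (mul_le_mul_of_nonneg_left hp (by positivity))
    simp only [PP, star_smul, RCLike.star_def, Complex.conj_ofReal, ContinuousLinearMap.smul_apply,
      hn, mul_add]
  obtain ⟨v, hv, h⟩ := iter S T herg ω hω (smul_mem' (r : ℂ) hx) ha' hl hp'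
    (η := α / (8 * N)) (by positivity) N N le_rfl
  refine ⟨v, hv, le_trans ?_ (by simpa using h)⟩
  have e : ‖x‖ ^ 4 * r ^ 4 = ‖x‖ ^ 4 * ((N : ℝ)⁻¹) ^ 2 := by rw [← hr]; ring
  have e2 : (N : ℝ) * ((N : ℝ)⁻¹ * a - l * ‖(r : ℂ) • x‖ ^ 4 - 2 * l * N * ((N : ℝ)⁻¹ * p) ^ 2 -
      α / (8 * N)) = a - l * ‖x‖ ^ 4 / N - 2 * l * p ^ 2 - α / 8 := by
    rw [norm_smul, Complex.norm_real, Real.norm_of_nonneg hr0, mul_comm r, mul_pow, e]
    field_simp
  have h3 : l * ‖x‖ ^ 4 / N ≤ α / 8 := by rw [div_le_iff₀ hN0]; linarith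
  simp only [Complex.coe_smul] at e2 ⊢
  linarith

end Crest.Agent.BR
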