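import Crest.Agent.BR.Greedy
/-! Bounded recovery for one vector, with uniform constants. -/
set_option autoImplicit false
namespace Crest.Agent.BR
open Crest.OpAlg Filter Topology MeasureTheory BoundedContinuousFunction
open scoped InnerProductSpace

variable {H : Type*} [NormedAddCommGroup H] [InnerProductSpace ℂ H] [CompleteSpace H]
  (S : ModularDatum H)

theorem exists_approx {K : Set ℝ} {R : ℝ} (hK : ∀ u ∈ K, |u| ≤ R) {h : H} (hh : ‖h‖ = 1)
    (hb : S.D.SupportedIn K h) {ε : ℝ} (hε : 0 < ε) (hε1 : ε ≤ 1) :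
    ∃ x ∈ S.M, ‖x S.vac - h‖ ≤ ε ∧ PP S x ≤ 4 + (Real.exp ((R + 1) / 2) + 1) ^ 2 := by
  have h1 := halfExp_band S.D hK hb
  set y := S.D.apply (cut R (fun u => ((Real.exp (u / 2) : ℝ) : ℂ)) (by fun_prop)) h with hy
  have h2 : ‖y‖ ≤ Real.exp ((R + 1) / 2) := by
    have := apply_le S.D (cut_le (R := R) (g := fun u => ((Real.exp (u / 2) : ℝ) : ℂ)) (by fun_prop)
      (Real.exp_pos ((R + 1) / 2)).le fun u hu => by
        rw [Complex.norm_real, Real.norm_of_nonneg (Real.exp_pos _).le]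
        exact Real.exp_le_exp.mpr (by linarith [le_abs_self u])) h
    rwa [hh, mul_one] at this
  have h3 : (h, S.J y) ∈ closure (Set.range fun a : S.M =>
      ((a : H →L[ℂ] H) S.vac, star (a : H →L[ℂ] H) S.vac)) := by
    rw [S.tomita]
    change S.D.HalfExp h (S.J (S.J y))
    rwa [S.J_J]
  obtain ⟨_, ⟨x, rfl⟩, hx⟩ := Metric.mem_closure_iff.mp h3 ε hε
  rw [Prod.dist_eq, max_lt_iff, dist_comm, dist_eq_norm, dist_comm, dist_eq_norm] at hx
  refine ⟨x, x.2, hx.1.le, add_le_add ?_ (pow_le_pow_left₀ (norm_nonneg _) ?_ 2)⟩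
  · have := norm_le_norm_add_norm_sub' ((x : H →L[ℂ] H) S.vac) h
    have h4 : ‖(x : H →L[ℂ] H) S.vac‖ ≤ 2 := by linarith [hx.1]
    nlinarith [norm_nonneg ((x : H →L[ℂ] H) S.vac)]
  · have := norm_le_norm_add_norm_sub' (star (x : H →L[ℂ] H) S.vac) (S.J y)
    rw [S.J.norm_map] at this
    linarith [hx.2]

theorem recover (herg : S.Ergodic) (ω : Ultrafilter ℕ) (hω : (ω : Filter ℕ) ≤ atTop)
    (T : H →L[ℂ] H) (s : ℝ) {c : ℝ} (hc : 0 < c) : ∃ C η : ℝ, 0 < η ∧ ∀ (δ : ℝ) (h : H), 0 < δ →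
      δ ≤ 1 → ‖h‖ = 1 → S.D.SupportedIn (Set.Icc (s - δ) (s + δ)) h →
      c ≤ ultraMean ω (fun t : ℝ => ‖T (S.D.wave t h)‖ ^ 2) →
      ∃ w ∈ S.M, ‖w‖ ≤ C ∧ η ≤ ‖T (w S.vac)‖ ∧
        S.D.SupportedIn (Set.Icc (s - 4 * δ) (s + 4 * δ)) (w S.vac) := by
  obtain ⟨C, hC⟩ := exists_kernel
  obtain ⟨p, hp⟩ : ∃ p : ℝ, p = 4 + (Real.exp ((|s| + 1 + 1) / 2) + 1) ^ 2 := ⟨_, rfl⟩
  have hp0 : 0 < p := by rw [hp]; positivity
  obtain ⟨l, hl⟩ : ∃ l : ℝ, l = c / 4 / (8 * p ^ 2) := ⟨_, rfl⟩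
  have hl0 : 0 < l := by rw [hl]; positivity
  obtain ⟨e, he0, he⟩ : ∃ e : ℝ, 0 < e ∧ e ^ 2 = c / 8 :=
    ⟨√(c / 8), by positivity, Real.sq_sqrt (by positivity)⟩
  obtain ⟨L, hL⟩ : ∃ L : ℝ, L = ‖T‖ ^ 3 / (l * e) + 1 := ⟨_, rfl⟩
  have hL0 : 0 < L := by rw [hL]; positivity
  refine ⟨C * L, e / 2, by positivity, fun δ h hδ hδ1 hh hb hm => ?_⟩
  obtain ⟨k, c', f, hk, rfl, hf, hf1, hf2, hf3⟩ := hC s δ hδ
  set T' : H →L[ℂ] H := T * S.D.apply f with hT'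
  have hT : ∀ y, ‖T' y‖ ≤ ‖T‖ * ‖y‖ := fun y => (T.le_opNorm _).trans
    (mul_le_mul_of_nonneg_left (by simpa using apply_le S.D hf1 y) (norm_nonneg _))
  have hfh : S.D.apply f h = h := by
    have := hb (f - 1) fun u hu => by simp [hf2 u hu]
    rw [map_sub, map_one, ContinuousLinearMap.sub_apply, sub_eq_zero] at this
    exact this
  obtain ⟨x, hx, hx1, hx2⟩ := exists_approx S (R := |s| + 1) (fun u hu => by
    rw [abs_le]; constructor <;> linarith [hu.1, hu.2, le_abs_self s, neg_abs_le s]) hh hb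
    (ε := min 1 (e / (‖T‖ + 1))) (by positivity) (min_le_left _ _)
  rw [← hp] at hx2
  have hx3 : ‖T‖ * ‖x S.vac - h‖ ≤ e := by
    have := hx1.trans (min_le_right _ _)
    rw [le_div_iff₀ (by positivity)] at this
    nlinarith [norm_nonneg (x S.vac - h)]
  have hex : ∀ (A : H →L[ℂ] H) (y : H), ∃ a, HM ω (fun t => ‖A (S.D.wave t y)‖ ^ 2) a := fun A y =>
    exists_HM ω ((A.continuous.comp (wave_cont S.D y)).norm.pow 2) (C := (‖A‖ * ‖y‖) ^ 2) fun t => by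
      rw [Real.norm_of_nonneg (by positivity), ← norm_wave S.D t y]
      exact pow_le_pow_left₀ (norm_nonneg _) (A.le_opNorm _) 2
  obtain ⟨a, ha⟩ := hex T' (x S.vac)
  obtain ⟨b, hb'⟩ := hex T h
  rw [hb'.ultraMean] at hm
  have hab : b ≤ 2 * a + 2 * e ^ 2 := hb'.le ((ha.rmul 2).add (HM.const hω _)) fun t => by
    have e1 : T (S.D.wave t h) = T' (S.D.wave t (x S.vac)) - T' (S.D.wave t (x S.vac - h)) := by
      rw [← map_sub, ← map_sub, sub_sub_cancel, hT', ContinuousLinearMap.mul_apply, apply_wave, hfh]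
    have h1 := hT (S.D.wave t (x S.vac - h))
    rw [norm_wave] at h1
    have h2 : ‖T (S.D.wave t h)‖ ≤ ‖T' (S.D.wave t (x S.vac))‖ + e := by
      rw [e1]; exact norm_sub_le_of_le le_rfl (h1.trans hx3)
    have h3 := pow_le_pow_left₀ (norm_nonneg _) h2 2
    nlinarith [sq_nonneg (‖T' (S.D.wave t (x S.vac))‖ - e)]
  obtain ⟨v, hv, hv'⟩ := greedy S T' herg ω hω hx ha hl0.le hx2 (α := c / 4) (by positivity)
    (by linarith) (by rw [hl]; field_simp; rfl)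
  obtain ⟨v', hv'M, hv'n, hv''⟩ := exists_trunc hv hL0
  obtain ⟨w, hw, hwn, hwv⟩ := exists_filter S hk c' f hf hv'M
  refine ⟨w, hw, hwn.trans (mul_le_mul_of_nonneg_left hv'n
    (integral_nonneg fun _ => norm_nonneg _)), ?_, fun g hg => ?_⟩
  · rw [hwv]
    change _ ≤ ‖T' (v' S.vac)‖
    simp only [RR, QQ] at hv'
    set q := ‖(star v * v) S.vac‖
    have hq : 0 ≤ q := norm_nonneg _
    have h1 : ‖v S.vac‖ ^ 2 ≤ q := by
      rw [← re_star_mul]
      refine (Complex.re_le_norm _).trans ((norm_inner_le_norm _ _).trans ?_)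
      rw [S.norm_vac, mul_one]
    have h2 : ‖T' (v S.vac)‖ ^ 2 ≤ ‖T‖ ^ 2 * q :=
      (pow_le_pow_left₀ (norm_nonneg _) (hT _) 2).trans
        (by rw [mul_pow]; exact mul_le_mul_of_nonneg_left h1 (sq_nonneg _))
    have h3 : l * q ≤ ‖T‖ ^ 2 := by
      by_contra hn
      have := mul_le_mul_of_nonneg_right (not_le.mp hn).le hq
      nlinarith
    have h4 : e ≤ ‖T' (v S.vac)‖ :=
      (abs_le_of_sq_le_sq' (by nlinarith [mul_nonneg hl0.le (sq_nonneg q)]) (norm_nonneg _)).2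
    have h5 : ‖T' (v S.vac - v' S.vac)‖ ≤ e / 2 := by
      refine (hT _).trans ((mul_le_mul_of_nonneg_left (hv'' _) (norm_nonneg _)).trans ?_)
      rw [← mul_div_assoc, div_le_iff₀ (by positivity)]
      have h6 : ‖T‖ * q ≤ ‖T‖ ^ 3 / l := by
        rw [le_div_iff₀ hl0]
        nlinarith [mul_le_mul_of_nonneg_left h3 (norm_nonneg T)]
      have h7 : e / 2 * (2 * L) = ‖T‖ ^ 3 / l + e := by rw [hL]; field_simp
      linarith
    have h6 := norm_le_norm_add_norm_sub' (T' (v S.vac)) (T' (v' S.vac))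
    rw [← map_sub] at h6
    linarith
  · have : g * f = 0 := by
      ext u
      by_cases hu : u ∈ Set.Icc (s - 4 * δ) (s + 4 * δ)
      · simp [hg u hu]
      · simp [hf3 u hu]
    rw [hwv, ← apply_mul, this, map_zero]; rfl

end Crest.Agent.BR
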